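import Vale.Agent.P100h3.Core

open Filter Topology Laplacian InnerProductSpace

namespace Vale.Agent.P100h3

variable {E : Type*} [NormedAddCommGroup E] [InnerProductSpace ℝ E] [FiniteDimensional ℝ E]

/-- The barrier: a quadratic polynomial in `log ‖y‖ ^ 2`. -/
noncomputable def barrier (a c d : ℝ) (y : E) : ℝ :=
  a * (Real.log (‖y‖ ^ 2)) ^ 2 + c * Real.log (‖y‖ ^ 2) + d

omit [FiniteDimensional ℝ E] in
theorem barrier_contDiffAt (a c d : ℝ) {x : E} (hx : x ≠ 0) :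
    ContDiffAt ℝ 2 (barrier a c d : E → ℝ) x := by
  have h1 : ContDiffAt ℝ 2 (fun y : E => ‖y‖ ^ 2) x := (contDiff_norm_sq ℝ).contDiffAt
  have h2 : ContDiffAt ℝ 2 (fun y : E => Real.log (‖y‖ ^ 2)) x :=
    h1.log (by positivity)
  unfold barrier
  exact ((contDiffAt_const.mul (h2.pow 2)).add (contDiffAt_const.mul h2)).add contDiffAt_const

omit [FiniteDimensional ℝ E] in
theorem barrier_continuousOn (a c d : ℝ) {K : Set E} (hK : ∀ x ∈ K, x ≠ 0) :
    ContinuousOn (barrier a c d : E → ℝ) K := fun x hx =>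
  (barrier_contDiffAt a c d (hK x hx)).continuousAt.continuousWithinAt

omit [FiniteDimensional ℝ E] in
theorem barrier_line (a c d : ℝ) {x e : E} (hx : x ≠ 0) (he : ‖e‖ = 1) :
    deriv (deriv (fun t : ℝ => barrier a c d (x + t • e))) 0 =
      (8 * a * (inner ℝ x e) ^ 2 +
        (2 * a * Real.log (‖x‖ ^ 2) + c) * (2 * ‖x‖ ^ 2 - 4 * (inner ℝ x e) ^ 2)) / (‖x‖ ^ 2) ^ 2 := by
  set s₀ : ℝ := ‖x‖ ^ 2 with hs₀
  set β : ℝ := inner ℝ x e with hβ
  have hs₀pos : 0 < s₀ := by positivity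
  set ρ : ℝ → ℝ := fun t => s₀ + 2 * β * t + t ^ 2 with hρ
  have hρeq : ∀ t : ℝ, ‖x + t • e‖ ^ 2 = ρ t := by
    intro t
    rw [norm_add_sq_real, inner_smul_right, norm_smul, he]
    simp only [hρ, mul_one, Real.norm_eq_abs, sq_abs]
    ring
  have hφ : (fun t : ℝ => barrier a c d (x + t • e)) =
      fun t => a * (Real.log (ρ t)) ^ 2 + c * Real.log (ρ t) + d := by
    funext t
    simp only [barrier, hρeq]
  rw [hφ]
  have hρd : ∀ t : ℝ, HasDerivAt ρ (2 * β + 2 * t) t := by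
    intro t
    have h1 : HasDerivAt (fun t : ℝ => 2 * β * t) (2 * β) t := by
      simpa using (hasDerivAt_id t).const_mul (2 * β)
    have h2 : HasDerivAt (fun t : ℝ => t ^ 2) (2 * t) t := by
      simpa using hasDerivAt_pow 2 t
    exact ((h1.const_add s₀).add h2)
  have hρ0 : ρ 0 = s₀ := by simp [hρ]
  have hρcont : ContinuousAt ρ 0 := (hρd 0).continuousAt
  have hρev : ∀ᶠ t in 𝓝 (0 : ℝ), ρ t ≠ 0 := by
    have : ρ 0 ≠ 0 := by rw [hρ0]; exact hs₀pos.ne'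
    exact hρcont.eventually_ne this
  have hd1 : deriv (fun t : ℝ => a * (Real.log (ρ t)) ^ 2 + c * Real.log (ρ t) + d) =ᶠ[𝓝 0]
      fun t => (2 * a * Real.log (ρ t) + c) * ((2 * β + 2 * t) / ρ t) := by
    filter_upwards [hρev] with t ht
    have hl : HasDerivAt (fun t : ℝ => Real.log (ρ t)) ((2 * β + 2 * t) / ρ t) t :=
      (hρd t).log ht
    have h1 := ((hl.pow 2).const_mul a).add (hl.const_mul c)
    have h2 := h1.add_const d
    have h3 := h2.deriv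
    simp only [Pi.add_apply, Pi.pow_apply] at h3
    convert h3 using 1
    · simp only [Nat.cast_ofNat]
      ring
  rw [hd1.deriv_eq]
  have hl0 : HasDerivAt (fun t : ℝ => Real.log (ρ t)) ((2 * β + 2 * 0) / ρ 0) 0 :=
    (hρd 0).log (by rw [hρ0]; exact hs₀pos.ne')
  have hA : HasDerivAt (fun t : ℝ => 2 * a * Real.log (ρ t) + c)
      (2 * a * ((2 * β + 2 * 0) / ρ 0)) 0 := (hl0.const_mul (2 * a)).add_const c
  have hN : HasDerivAt (fun t : ℝ => 2 * β + 2 * t) 2 0 := by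
    simpa using ((hasDerivAt_id (0 : ℝ)).const_mul 2).const_add (2 * β)
  have hB : HasDerivAt (fun t : ℝ => (2 * β + 2 * t) / ρ t)
      ((2 * ρ 0 - (2 * β + 2 * 0) * (2 * β + 2 * 0)) / ρ 0 ^ 2) 0 :=
    hN.div (hρd 0) (by rw [hρ0]; exact hs₀pos.ne')
  have hfin := (hA.mul hB).deriv
  simp only [Pi.mul_def] at hfin
  rw [hfin, hρ0]
  field_simp
  ring

theorem barrier_lap (a c d : ℝ) {x : E} (hx : x ≠ 0) :
    Δ (barrier a c d : E → ℝ) x =
      (8 * a + (2 * (Module.finrank ℝ E : ℝ) - 4) * (2 * a * Real.log (‖x‖ ^ 2) + c)) / ‖x‖ ^ 2 := by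
  set b := stdOrthonormalBasis ℝ E
  rw [lap_eq_sum b (barrier_contDiffAt a c d hx)]
  have hs₀pos : 0 < ‖x‖ ^ 2 := by positivity
  have hterm : ∀ i, deriv (deriv (fun t : ℝ => barrier a c d (x + t • b i))) 0 =
      (8 * a * (inner ℝ x (b i)) ^ 2 +
        (2 * a * Real.log (‖x‖ ^ 2) + c) * (2 * ‖x‖ ^ 2 - 4 * (inner ℝ x (b i)) ^ 2)) /
          (‖x‖ ^ 2) ^ 2 := fun i => barrier_line a c d hx (b.orthonormal.1 i)
  simp only [hterm]
  have hsq : ∑ i, (inner ℝ x (b i)) ^ 2 = ‖x‖ ^ 2 := by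
    have := b.sum_sq_norm_inner_right x
    simp only [Real.norm_eq_abs, sq_abs] at this
    rw [← this]
    exact Finset.sum_congr rfl fun i _ => by rw [real_inner_comm]
  have hsum : ∑ i, (8 * a * (inner ℝ x (b i)) ^ 2 +
        (2 * a * Real.log (‖x‖ ^ 2) + c) * (2 * ‖x‖ ^ 2 - 4 * (inner ℝ x (b i)) ^ 2)) =
      8 * a * ‖x‖ ^ 2 + (2 * a * Real.log (‖x‖ ^ 2) + c) *
        (2 * ‖x‖ ^ 2 * (Module.finrank ℝ E : ℝ) - 4 * ‖x‖ ^ 2) := by
    have h : ∀ i, 8 * a * (inner ℝ x (b i)) ^ 2 +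
        (2 * a * Real.log (‖x‖ ^ 2) + c) * (2 * ‖x‖ ^ 2 - 4 * (inner ℝ x (b i)) ^ 2) =
        (8 * a - 4 * (2 * a * Real.log (‖x‖ ^ 2) + c)) * (inner ℝ x (b i)) ^ 2 +
          2 * ‖x‖ ^ 2 * (2 * a * Real.log (‖x‖ ^ 2) + c) := by
      intro i; ring
    simp only [h]
    rw [Finset.sum_add_distrib, ← Finset.mul_sum, hsq]
    simp only [Finset.sum_const, Finset.card_univ, Fintype.card_fin, nsmul_eq_mul]
    ring
  rw [← Finset.sum_div, hsum]
  field_simp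

end Vale.Agent.P100h3
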