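import Mathlib

open Filter Topology Laplacian InnerProductSpace

namespace Vale.Agent.P100h3

variable {E : Type*} [NormedAddCommGroup E] [InnerProductSpace ℝ E] [FiniteDimensional ℝ E]

omit [FiniteDimensional ℝ E] in
/-- Second derivative along a line of a twice differentiable function. -/
theorem deriv_deriv_line {f : E → ℝ} {x : E} (hf : ContDiffAt ℝ 2 f x) (e : E) :
    deriv (deriv (fun t : ℝ => f (x + t • e))) 0 = fderiv ℝ (fderiv ℝ f) x e e := by
  have hline : ∀ t : ℝ, HasDerivAt (fun s : ℝ => x + s • e) e t := by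
    intro t
    simpa using ((hasDerivAt_id t).smul_const e).const_add x
  have hcont : Tendsto (fun t : ℝ => x + t • e) (𝓝 0) (𝓝 x) := by
    have h0 : ContinuousAt (fun t : ℝ => x + t • e) 0 := (hline 0).continuousAt
    simpa [ContinuousAt] using h0
  have hev : ∀ᶠ y in 𝓝 x, ContDiffAt ℝ 2 f y := hf.eventually (by simp)
  have hevt : ∀ᶠ t in 𝓝 (0 : ℝ), ContDiffAt ℝ 2 f (x + t • e) := hcont.eventually hev
  have hd1 : deriv (fun t : ℝ => f (x + t • e)) =ᶠ[𝓝 0] fun t => fderiv ℝ f (x + t • e) e := by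
    filter_upwards [hevt] with t ht
    have h1 : DifferentiableAt ℝ f (x + t • e) := ht.differentiableAt (by norm_num)
    exact (h1.hasFDerivAt.comp_hasDerivAt t (hline t)).deriv
  have h2 : ContDiffAt ℝ 1 (fderiv ℝ f) x := hf.fderiv_right (by norm_num)
  have h3 : DifferentiableAt ℝ (fderiv ℝ f) x := h2.differentiableAt (by norm_num)
  have h3' : HasFDerivAt (fderiv ℝ f) (fderiv ℝ (fderiv ℝ f) x) (x + (0 : ℝ) • e) := by
    simpa using h3.hasFDerivAt
  have h4 : HasDerivAt (fun t : ℝ => fderiv ℝ f (x + t • e)) (fderiv ℝ (fderiv ℝ f) x e) 0 :=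
    h3'.comp_hasDerivAt (0 : ℝ) (hline 0)
  have h5 : HasDerivAt (fun t : ℝ => fderiv ℝ f (x + t • e) e)
      (fderiv ℝ (fderiv ℝ f) x e e) 0 := by
    have := h4.clm_apply (hasDerivAt_const (0 : ℝ) e)
    simpa using this
  rw [hd1.deriv_eq]
  exact h5.deriv

/-- The Laplacian as a sum of second derivatives along the lines of an orthonormal basis. -/
theorem lap_eq_sum {ι : Type*} [Fintype ι] (b : OrthonormalBasis ι ℝ E) {f : E → ℝ} {x : E}
    (hf : ContDiffAt ℝ 2 f x) :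
    Δ f x = ∑ i, deriv (deriv (fun t : ℝ => f (x + t • b i))) 0 := by
  rw [laplacian_eq_iteratedFDeriv_orthonormalBasis f b]
  refine Finset.sum_congr rfl fun i _ => ?_
  rw [deriv_deriv_line hf, iteratedFDeriv_two_apply]
  simp

/-- At a local minimum the second derivative along a line is nonnegative. -/
theorem deriv_deriv_nonneg_of_localMin {φ : ℝ → ℝ} (h : IsLocalMin φ 0)
    (hd : deriv φ 0 = 0) (hc : ContinuousAt φ 0) : 0 ≤ deriv (deriv φ) 0 := by
  by_contra hneg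
  push Not at hneg
  have hmax : IsLocalMax φ 0 := isLocalMax_of_deriv_deriv_neg hneg hd hc
  have hconst : φ =ᶠ[𝓝 0] fun _ => φ 0 := by
    filter_upwards [h, hmax] with t h1 h2
    exact le_antisymm h2 h1
  have hdd : deriv φ =ᶠ[𝓝 0] deriv (fun _ => φ 0) := hconst.deriv
  have h0 : deriv (deriv φ) 0 = deriv (deriv (fun _ : ℝ => φ 0)) 0 := hdd.deriv_eq
  rw [h0] at hneg
  simp at hneg

/-- At a local minimum of a twice differentiable function the Laplacian is nonnegative. -/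
theorem lap_nonneg_of_localMin {f : E → ℝ} {x : E} (hf : ContDiffAt ℝ 2 f x)
    (hmin : IsLocalMin f x) : 0 ≤ Δ f x := by
  rw [lap_eq_sum (stdOrthonormalBasis ℝ E) hf]
  refine Finset.sum_nonneg fun i _ => ?_
  set e := stdOrthonormalBasis ℝ E i
  have hline : ∀ t : ℝ, HasDerivAt (fun s : ℝ => x + s • e) e t := by
    intro t
    simpa using ((hasDerivAt_id t).smul_const e).const_add x
  have hcont : ContinuousAt (fun t : ℝ => x + t • e) 0 := (hline 0).continuousAt
  have hcont' : Tendsto (fun t : ℝ => x + t • e) (𝓝 0) (𝓝 (x + (0 : ℝ) • e)) := hcont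
  have hx0 : x + (0 : ℝ) • e = x := by simp
  rw [hx0] at hcont'
  have hm : IsLocalMin (fun t : ℝ => f (x + t • e)) 0 := by
    have h1 : ∀ᶠ t in 𝓝 (0 : ℝ), f x ≤ f (x + t • e) := hcont'.eventually hmin
    filter_upwards [h1] with t ht
    simpa using ht
  have hd : DifferentiableAt ℝ f (x + (0 : ℝ) • e) := by
    rw [hx0]; exact hf.differentiableAt (by norm_num)
  have hc : ContinuousAt (fun t : ℝ => f (x + t • e)) 0 :=
    (hd.hasFDerivAt.comp_hasDerivAt (0 : ℝ) (hline 0)).continuousAt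
  exact deriv_deriv_nonneg_of_localMin hm hm.deriv_eq_zero hc

/-- Weak minimum principle on a closed annulus (in the strict form we need). -/
theorem annulus_min {f : E → ℝ} {r₁ r₂ m : ℝ}
    (hcont : ContinuousOn f {x | r₁ ≤ ‖x‖ ∧ ‖x‖ ≤ r₂})
    (hc2 : ∀ x, r₁ < ‖x‖ → ‖x‖ < r₂ → ContDiffAt ℝ 2 f x)
    (hlap : ∀ x, r₁ < ‖x‖ → ‖x‖ < r₂ → Δ f x < 0)
    (hb₁ : ∀ x, ‖x‖ = r₁ → m ≤ f x) (hb₂ : ∀ x, ‖x‖ = r₂ → m ≤ f x)
    {y : E} (hy₁ : r₁ ≤ ‖y‖) (hy₂ : ‖y‖ ≤ r₂) : m ≤ f y := by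
  set K : Set E := {x | r₁ ≤ ‖x‖ ∧ ‖x‖ ≤ r₂} with hK
  have hcomp : IsCompact K := by
    have h1 : IsClosed K := by
      have h2 : K = {x | r₁ ≤ ‖x‖} ∩ {x | ‖x‖ ≤ r₂} := rfl
      rw [h2]
      exact (isClosed_le continuous_const continuous_norm).inter
        (isClosed_le continuous_norm continuous_const)
    refine (isCompact_closedBall (0 : E) r₂).of_isClosed_subset h1 ?_
    intro x hx
    simpa [mem_closedBall_zero_iff] using hx.2
  obtain ⟨x₀, hx₀, hmin⟩ := hcomp.exists_isMinOn ⟨y, hy₁, hy₂⟩ hcont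
  have hle : f x₀ ≤ f y := hmin ⟨hy₁, hy₂⟩
  refine le_trans ?_ hle
  rcases eq_or_lt_of_le hx₀.1 with h | h1
  · exact hb₁ x₀ h.symm
  rcases eq_or_lt_of_le hx₀.2 with h | h2
  · exact hb₂ x₀ h
  exfalso
  have hnb : K ∈ 𝓝 x₀ := by
    have hopen : IsOpen {x : E | r₁ < ‖x‖ ∧ ‖x‖ < r₂} :=
      (isOpen_lt continuous_const continuous_norm).inter
        (isOpen_lt continuous_norm continuous_const)
    refine Filter.mem_of_superset (hopen.mem_nhds ⟨h1, h2⟩) ?_
    intro x hx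
    exact ⟨hx.1.le, hx.2.le⟩
  have hloc : IsLocalMin f x₀ := hmin.isLocalMin hnb
  have := lap_nonneg_of_localMin (hc2 x₀ h1 h2) hloc
  exact absurd (hlap x₀ h1 h2) (not_lt.mpr this)

end Vale.Agent.P100h3
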