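import Vale.Agent.P100h3.Barrier

open Filter Topology Laplacian InnerProductSpace

namespace Vale.Agent.P100h3

variable {E : Type*} [NormedAddCommGroup E] [InnerProductSpace ℝ E] [FiniteDimensional ℝ E]

omit [InnerProductSpace ℝ E] [FiniteDimensional ℝ E] in
theorem log_sq_le_of_le {x : E} {r : ℝ} (hr : 0 < r) (h : r ≤ ‖x‖) :
    2 * Real.log r ≤ Real.log (‖x‖ ^ 2) := by
  rw [Real.log_pow]
  have := Real.log_le_log hr h
  push_cast
  linarith

omit [InnerProductSpace ℝ E] [FiniteDimensional ℝ E] in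
theorem log_sq_le_of_ge {x : E} {r : ℝ} (hx : x ≠ 0) (h : ‖x‖ ≤ r) :
    Real.log (‖x‖ ^ 2) ≤ 2 * Real.log r := by
  rw [Real.log_pow]
  have := Real.log_le_log (norm_pos_iff.mpr hx) h
  push_cast
  linarith

/-- Comparison with a log-quadratic barrier on an annulus. -/
theorem compare {u : E → ℝ} (hu : Continuous u) (hc2 : ContDiffOn ℝ 2 u {0}ᶜ)
    {a c d r₁ r₂ : ℝ} (hr₁ : 0 < r₁)
    (hlap : ∀ x : E, r₁ < ‖x‖ → ‖x‖ < r₂ → Δ u x < Δ (barrier a c d : E → ℝ) x)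
    (hb₁ : ∀ x : E, ‖x‖ = r₁ → barrier a c d x ≤ u x)
    (hb₂ : ∀ x : E, ‖x‖ = r₂ → barrier a c d x ≤ u x)
    {y : E} (hy₁ : r₁ ≤ ‖y‖) (hy₂ : ‖y‖ ≤ r₂) : barrier a c d y ≤ u y := by
  have hne : ∀ x : E, r₁ ≤ ‖x‖ → x ≠ 0 := by
    intro x hx h0
    rw [h0, norm_zero] at hx
    linarith
  have hu2 : ∀ x : E, x ≠ 0 → ContDiffAt ℝ 2 u x := fun x hx =>
    hc2.contDiffAt (isOpen_compl_singleton.mem_nhds hx)
  have key : (0 : ℝ) ≤ (u - (barrier a c d : E → ℝ)) y := by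
    refine annulus_min (f := u - (barrier a c d : E → ℝ)) (r₁ := r₁) (r₂ := r₂) (m := 0) ?_ ?_ ?_ ?_ ?_ hy₁ hy₂
    · exact hu.continuousOn.sub (barrier_continuousOn a c d fun x hx => hne x hx.1)
    · intro x h1 _
      exact (hu2 x (hne x h1.le)).sub (barrier_contDiffAt a c d (hne x h1.le))
    · intro x h1 h2
      have hx := hne x h1.le
      rw [ContDiffAt.laplacian_sub (hu2 x hx) (barrier_contDiffAt a c d hx)]
      linarith [hlap x h1 h2]
    · intro x hx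
      simpa using hb₁ x hx
    · intro x hx
      simpa using hb₂ x hx
  simpa using key

/-- A positive function with `-Δ u ≥ c / ‖x‖ ^ 2` near the origin has a logarithmic lower bound. -/
theorem log_lower_bound (hd : 2 ≤ Module.finrank ℝ E)
    {u : E → ℝ} (hu : Continuous u) (hc2 : ContDiffOn ℝ 2 u {0}ᶜ) (hpos : ∀ x, 0 < u x)
    {c ρ : ℝ} (hc : 0 < c) (hρ : 0 < ρ)
    (hlap : ∀ x : E, x ≠ 0 → ‖x‖ < ρ → c / ‖x‖ ^ 2 ≤ - Δ u x)
    {y : E} (hy0 : y ≠ 0) (hyρ : ‖y‖ < ρ) :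
    c / (2 * (2 * (Module.finrank ℝ E : ℝ) + 4)) / 2 *
      (2 * Real.log ρ - Real.log (‖y‖ ^ 2)) ≤ u y := by
  set D : ℝ := 2 * (Module.finrank ℝ E : ℝ) - 4 with hD
  have hD0 : 0 ≤ D := by
    have : (2 : ℝ) ≤ (Module.finrank ℝ E : ℝ) := by exact_mod_cast hd
    rw [hD]; linarith
  set κ : ℝ := c / (2 * (2 * (Module.finrank ℝ E : ℝ) + 4)) with hκdef
  have hdenom : 2 * (2 * (Module.finrank ℝ E : ℝ) + 4) = 2 * (8 + D) := by rw [hD]; ring
  have h8D : 0 < 8 + D := by linarith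
  have hκ : 0 < κ := by
    rw [hκdef, hdenom]; positivity
  have hκmul : κ * (8 + D) = c / 2 := by
    rw [hκdef, hdenom]; field_simp
  set ℓ₂ : ℝ := 2 * Real.log ρ with hℓ₂
  set ℓ : ℝ := Real.log (‖y‖ ^ 2) with hℓ
  have hyn : 0 < ‖y‖ := norm_pos_iff.mpr hy0
  have hℓle : ℓ ≤ ℓ₂ := log_sq_le_of_ge hy0 hyρ.le
  set T : ℝ := min (2 * ℓ - ℓ₂) (ℓ₂ - 1) with hT
  have hT1 : T ≤ 2 * ℓ - ℓ₂ := min_le_left _ _
  have hT2 : T ≤ ℓ₂ - 1 := min_le_right _ _
  set r₁ : ℝ := Real.exp (T / 2) with hr₁def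
  have hr₁ : 0 < r₁ := Real.exp_pos _
  have hlogr₁ : 2 * Real.log r₁ = T := by
    rw [hr₁def, Real.log_exp]; ring
  have hℓlog : ℓ = 2 * Real.log ‖y‖ := by
    rw [hℓ, Real.log_pow]; push_cast; ring
  have hy₁ : r₁ ≤ ‖y‖ := by
    rw [hr₁def, ← Real.le_log_iff_exp_le hyn]
    have : T ≤ ℓ := by linarith
    rw [hℓlog] at this
    linarith
  set Λ : ℝ := ℓ₂ - T with hΛ
  have hΛ1 : 1 ≤ Λ := by rw [hΛ]; linarith
  have hΛpos : 0 < Λ := by linarith
  set a : ℝ := - κ / Λ with ha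
  set b : ℝ := κ * (T + ℓ₂) / Λ with hb
  set e : ℝ := - κ * T * ℓ₂ / Λ with he
  have hbarrier : ∀ x : E, barrier a b e x =
      κ * (Real.log (‖x‖ ^ 2) - T) * (ℓ₂ - Real.log (‖x‖ ^ 2)) / Λ := by
    intro x
    simp only [barrier, ha, hb, he]
    field_simp
    ring
  have hkey : barrier a b e y ≤ u y := by
    refine compare hu hc2 hr₁ ?_ ?_ ?_ hy₁ hyρ.le
    · intro x h1 h2
      have hx : x ≠ 0 := by
        intro h0; rw [h0, norm_zero] at h1; linarith
      have hxn : 0 < ‖x‖ := norm_pos_iff.mpr hx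
      have hs : 0 < ‖x‖ ^ 2 := by positivity
      have hl1 : T ≤ Real.log (‖x‖ ^ 2) := by
        have := log_sq_le_of_le hr₁ h1.le (x := x)
        linarith
      have hl2 : Real.log (‖x‖ ^ 2) ≤ ℓ₂ := log_sq_le_of_ge hx h2.le
      have hu1 := hlap x hx h2
      rw [barrier_lap a b e hx]
      set L := Real.log (‖x‖ ^ 2) with hL
      have hbound : - (c / 2) ≤ 8 * a + D * (2 * a * L + b) := by
        have h1 : 8 * a + D * (2 * a * L + b) = (- 8 * κ + D * κ * (T + ℓ₂ - 2 * L)) / Λ := by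
          simp only [ha, hb]
          field_simp
          ring
        rw [h1, le_div_iff₀ hΛpos, ← hκmul]
        have h2 : - Λ ≤ T + ℓ₂ - 2 * L := by rw [hΛ]; linarith
        have h3 : D * κ * (- Λ) ≤ D * κ * (T + ℓ₂ - 2 * L) :=
          mul_le_mul_of_nonneg_left h2 (by positivity)
        nlinarith [mul_le_mul_of_nonneg_left hΛ1 hκ.le]
      have h5 : -(c / 2) / ‖x‖ ^ 2 ≤ (8 * a + D * (2 * a * L + b)) / ‖x‖ ^ 2 :=
        div_le_div_of_nonneg_right hbound hs.le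
      have h6 : c / ‖x‖ ^ 2 = c / 2 / ‖x‖ ^ 2 + c / 2 / ‖x‖ ^ 2 := by ring
      have h7 : 0 < c / 2 / ‖x‖ ^ 2 := by positivity
      have h8 : -(c / 2) / ‖x‖ ^ 2 = - (c / 2 / ‖x‖ ^ 2) := by ring
      rw [hD] at h5
      linarith
    · intro x hx
      have h0 : 2 * Real.log ‖x‖ = T := by rw [hx]; exact hlogr₁
      have : Real.log (‖x‖ ^ 2) = T := by
        rw [Real.log_pow]; push_cast; exact h0
      rw [hbarrier, this]
      simpa using (hpos x).le
    · intro x hx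
      have hx0 : 0 < ‖x‖ := by rw [hx]; exact hρ
      have : Real.log (‖x‖ ^ 2) = ℓ₂ := by
        rw [Real.log_pow, hx]; push_cast; rfl
      rw [hbarrier, this]
      simpa using (hpos x).le
  refine le_trans ?_ hkey
  rw [hbarrier y, ← hℓ]
  rw [le_div_iff₀ hΛpos]
  have h9 : Λ ≤ 2 * (ℓ - T) := by rw [hΛ]; linarith
  have h10 : 0 ≤ ℓ₂ - ℓ := by linarith
  have h11 : κ * (ℓ₂ - ℓ) * Λ ≤ κ * (ℓ₂ - ℓ) * (2 * (ℓ - T)) :=
    mul_le_mul_of_nonneg_left h9 (by positivity)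
  nlinarith

/-- No positive continuous function can satisfy `-Δ u ≥ c / ‖x‖ ^ 2` near the origin. -/
theorem no_singular (hd : 2 ≤ Module.finrank ℝ E)
    {u : E → ℝ} (hu : Continuous u) (hc2 : ContDiffOn ℝ 2 u {0}ᶜ) (hpos : ∀ x, 0 < u x)
    {c ρ : ℝ} (hc : 0 < c) (hρ : 0 < ρ)
    (hlap : ∀ x : E, x ≠ 0 → ‖x‖ < ρ → c / ‖x‖ ^ 2 ≤ - Δ u x) : False := by
  set κ' : ℝ := c / (2 * (2 * (Module.finrank ℝ E : ℝ) + 4)) / 2 with hκ'
  have hfr : (0 : ℝ) ≤ (Module.finrank ℝ E : ℝ) := by positivity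
  have hκ'pos : 0 < κ' := by rw [hκ']; positivity
  have hbd := fun {y : E} (h0 : y ≠ 0) (h1 : ‖y‖ < ρ) =>
    log_lower_bound hd hu hc2 hpos hc hρ hlap h0 h1
  have hcont0 : ContinuousAt u (0 : E) := hu.continuousAt
  obtain ⟨η, hη, hball⟩ := Metric.continuousAt_iff.mp hcont0 1 one_pos
  -- a unit vector
  have hpos_fr : 0 < Module.finrank ℝ E := by omega
  let i₀ : Fin (Module.finrank ℝ E) := ⟨0, hpos_fr⟩
  set e : E := stdOrthonormalBasis ℝ E i₀ with he
  have hen : ‖e‖ = 1 := (stdOrthonormalBasis ℝ E).orthonormal.1 i₀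
  set Q : ℝ := (2 * Real.log ρ - (u 0 + 1) / κ') / 2 with hQ
  set t : ℝ := min (min η ρ / 2) (Real.exp (Q - 1)) with ht
  have hmin : 0 < min η ρ := lt_min hη hρ
  have htpos : 0 < t := lt_min (by positivity) (Real.exp_pos _)
  have ht1 : t < η := by
    have : t ≤ min η ρ / 2 := min_le_left _ _
    have h2 : min η ρ ≤ η := min_le_left _ _
    linarith
  have ht2 : t < ρ := by
    have : t ≤ min η ρ / 2 := min_le_left _ _
    have h2 : min η ρ ≤ ρ := min_le_right _ _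
    linarith
  have ht3 : Real.log t ≤ Q - 1 := by
    have : t ≤ Real.exp (Q - 1) := min_le_right _ _
    have h2 := Real.log_le_log htpos this
    rwa [Real.log_exp] at h2
  set y : E := t • e with hy
  have hyn : ‖y‖ = t := by
    rw [hy, norm_smul, hen, mul_one, Real.norm_of_nonneg htpos.le]
  have hy0 : y ≠ 0 := by
    rw [← norm_pos_iff, hyn]; exact htpos
  have h1 : κ' * (2 * Real.log ρ - Real.log (‖y‖ ^ 2)) ≤ u y := hbd hy0 (by rw [hyn]; exact ht2)
  have h2 : u y < u 0 + 1 := by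
    have : dist (u y) (u 0) < 1 := hball (by rw [dist_zero_right, hyn]; exact ht1)
    rw [Real.dist_eq] at this
    linarith [abs_lt.mp this]
  have h3 : Real.log (‖y‖ ^ 2) = 2 * Real.log t := by
    rw [Real.log_pow, hyn]; push_cast; ring
  rw [h3] at h1
  have h4 : (u 0 + 1) / κ' < 2 * Real.log ρ - 2 * Real.log t := by
    rw [hQ] at ht3
    linarith
  have h5 : u 0 + 1 < κ' * (2 * Real.log ρ - 2 * Real.log t) := by
    rw [div_lt_iff₀ hκ'pos] at h4
    linarith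
  linarith

/-- Dimension two: a positive strictly superharmonic function on the punctured plane
does not exist. -/
theorem no_superharmonic_two (hd : Module.finrank ℝ E = 2)
    {u : E → ℝ} (hu : Continuous u) (hc2 : ContDiffOn ℝ 2 u {0}ᶜ) (hpos : ∀ x, 0 < u x)
    (hlap : ∀ x : E, x ≠ 0 → Δ u x < 0) : False := by
  have hpos_fr : 0 < Module.finrank ℝ E := by omega
  let i₀ : Fin (Module.finrank ℝ E) := ⟨0, hpos_fr⟩
  have hen : ‖stdOrthonormalBasis ℝ E i₀‖ = 1 := (stdOrthonormalBasis ℝ E).orthonormal.1 i₀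
  have hS : IsCompact (Metric.sphere (0 : E) 1) := isCompact_sphere 0 1
  obtain ⟨x₀, hx₀, hmin⟩ := hS.exists_isMinOn
    ⟨stdOrthonormalBasis ℝ E i₀, by simpa using hen⟩ hu.continuousOn
  have hx₀n : ‖x₀‖ = 1 := by simpa using hx₀
  have hx₀0 : x₀ ≠ 0 := by
    rw [← norm_pos_iff, hx₀n]; exact one_pos
  set M : ℝ := u x₀ with hM
  have hMpos : 0 < M := hpos x₀
  have hsph : ∀ x : E, ‖x‖ = 1 → M ≤ u x := fun x hx => hmin (by simpa using hx)
  have hlapw : ∀ (b e : ℝ) (x : E), x ≠ 0 → Δ (barrier 0 b e : E → ℝ) x = 0 := by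
    intro b e x hx
    rw [barrier_lap 0 b e hx, hd]
    norm_num
  have hbar : ∀ (b e : ℝ) (x : E), barrier 0 b e x = b * Real.log (‖x‖ ^ 2) + e := by
    intro b e x
    simp [barrier]
  have hout : ∀ y : E, 1 ≤ ‖y‖ → ∀ T : ℝ, 0 < T → ‖y‖ ≤ Real.exp T →
      M - M / (2 * T) * Real.log (‖y‖ ^ 2) ≤ u y := by
    intro y hy T hT hyT
    have := compare (a := 0) (c := - (M / (2 * T))) (d := M) hu hc2
      (r₁ := 1) (r₂ := Real.exp T) (y := y) one_pos ?_ ?_ ?_ hy hyT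
    · rw [hbar] at this
      linarith
    · intro x h1 _
      have hx : x ≠ 0 := by
        rw [← norm_pos_iff]; linarith
      rw [hlapw _ _ x hx]
      exact hlap x hx
    · intro x hx
      rw [hbar, hx]
      simpa using hsph x hx
    · intro x hx
      rw [hbar, hx, Real.log_pow, Real.log_exp]
      have : -(M / (2 * T)) * ((2 : ℕ) * T) + M = 0 := by
        push_cast; field_simp; ring
      rw [this]
      exact (hpos x).le
  have hin : ∀ y : E, y ≠ 0 → ‖y‖ ≤ 1 → ∀ T : ℝ, 0 < T → Real.exp (-T) ≤ ‖y‖ →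
      M + M / (2 * T) * Real.log (‖y‖ ^ 2) ≤ u y := by
    intro y _ hy T hT hyT
    have := compare (a := 0) (c := M / (2 * T)) (d := M) hu hc2
      (r₁ := Real.exp (-T)) (r₂ := 1) (y := y) (Real.exp_pos _) ?_ ?_ ?_ hyT hy
    · rw [hbar] at this
      linarith
    · intro x h1 _
      have hx : x ≠ 0 := by
        rw [← norm_pos_iff]; exact lt_trans (Real.exp_pos _) h1
      rw [hlapw _ _ x hx]
      exact hlap x hx
    · intro x hx
      rw [hbar, hx, Real.log_pow, Real.log_exp]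
      have : M / (2 * T) * ((2 : ℕ) * -T) + M = 0 := by
        push_cast; field_simp; ring
      rw [this]
      exact (hpos x).le
    · intro x hx
      rw [hbar, hx]
      simpa using hsph x hx
  have hglobal : ∀ y : E, y ≠ 0 → M ≤ u y := by
    intro y hy
    have hyn : 0 < ‖y‖ := norm_pos_iff.mpr hy
    set ℓ : ℝ := Real.log (‖y‖ ^ 2) with hℓ
    have hℓlog : ℓ = 2 * Real.log ‖y‖ := by
      rw [hℓ, Real.log_pow]; push_cast; ring
    refine le_of_forall_pos_le_add fun ε hε => ?_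
    set T : ℝ := max |ℓ| (M * |ℓ| / (2 * ε)) + 1 with hT
    have hT1 : |ℓ| + 1 ≤ T := by
      rw [hT]; linarith [le_max_left |ℓ| (M * |ℓ| / (2 * ε))]
    have hT2 : M * |ℓ| / (2 * ε) + 1 ≤ T := by
      rw [hT]; linarith [le_max_right |ℓ| (M * |ℓ| / (2 * ε))]
    have hTpos : 0 < T := by linarith [abs_nonneg ℓ]
    have hsmall : M / (2 * T) * |ℓ| ≤ ε := by
      have h1 : M * |ℓ| / (2 * ε) ≤ T := by linarith
      rw [div_le_iff₀ (by positivity)] at h1
      have : M / (2 * T) * |ℓ| = M * |ℓ| / (2 * T) := by ring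
      rw [this, div_le_iff₀ (by positivity)]
      linarith
    have habsℓ := abs_le.mp (le_refl |ℓ|)
    rcases le_total 1 ‖y‖ with h1 | h1
    · have hyT : ‖y‖ ≤ Real.exp T := by
        rw [← Real.log_le_iff_le_exp hyn]
        linarith
      have := hout y h1 T hTpos hyT
      have h3 : M / (2 * T) * ℓ ≤ M / (2 * T) * |ℓ| :=
        mul_le_mul_of_nonneg_left (le_abs_self ℓ) (by positivity)
      linarith
    · have hyT : Real.exp (-T) ≤ ‖y‖ := by
        rw [← Real.le_log_iff_exp_le hyn]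
        linarith
      have := hin y hy h1 T hTpos hyT
      have h3 : M / (2 * T) * (-ℓ) ≤ M / (2 * T) * |ℓ| :=
        mul_le_mul_of_nonneg_left (neg_le_abs ℓ) (by positivity)
      linarith
  have hloc : IsLocalMin u x₀ := by
    filter_upwards [isOpen_compl_singleton.mem_nhds hx₀0] with y hy
    exact hglobal y hy
  have h2 : ContDiffAt ℝ 2 u x₀ := hc2.contDiffAt (isOpen_compl_singleton.mem_nhds hx₀0)
  have := lap_nonneg_of_localMin h2 hloc
  exact absurd (hlap x₀ hx₀0) (not_lt.mpr this)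

end Vale.Agent.P100h3
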