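import Vale.Agent.P100h3.OdeTwo

open Filter Topology Set

namespace Vale.Agent.P100h3

theorem flux_deriv {N A p : ℝ} {F g : ℝ → ℝ} {r : ℝ} (hr : 0 < r)
    (hF : HasDerivAt F (- ((N - 1) / r * F r + r ^ A * g r ^ p)) r) :
    HasDerivAt (fun r => r ^ N / r * F r) (- (r ^ N / r * (r ^ A * g r ^ p))) r := by
  have h1 := ((hasDerivAt_rpow_div N hr).div (hasDerivAt_id r) hr.ne').mul hF
  refine HasDerivAt.congr_deriv h1 ?_
  simp only [Pi.div_apply, id]
  field_simp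
  ring

theorem log_comb {s A p C y z : ℝ} (hs : 0 < s) (hy : 0 < y) (hz : 0 < z) (hC : 0 < C)
    (h : s ^ A * s ^ 2 * y ^ p ≤ C * z) :
    A * Real.log s + 2 * Real.log s + p * Real.log y ≤ Real.log C + Real.log z := by
  have hU : 0 < s ^ A := Real.rpow_pos_of_pos hs A
  have hY : 0 < y ^ p := Real.rpow_pos_of_pos hy p
  have h1 := Real.log_le_log (by positivity) h
  rw [Real.log_mul (by positivity) hY.ne', Real.log_mul hU.ne' (by positivity),
    Real.log_rpow hs, Real.log_pow, Real.log_rpow hy, Real.log_mul hC.ne' hz.ne'] at h1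
  push_cast at h1
  linarith

/-- Value of the Pohozaev function at a point. -/
noncomputable def pval (N A B p q μ r f F g G : ℝ) : ℝ :=
  r ^ N * F * G + r ^ N * r ^ A * g ^ (p + 1) / (p + 1)
    + r ^ N * r ^ B * f ^ (q + 1) / (q + 1)
    + μ * (r ^ N / r * F) * g + (N - 2 - μ) * f * (r ^ N / r * G)

theorem pval_upper {N A B p q μ K s f F g G : ℝ} (hs : 0 < s) (_hN : 2 < N)
    (hNA : 0 < N + A) (hNB : 0 < N + B) (hp : 0 < p) (hq : 0 < q)
    (hμ0 : 0 ≤ μ) (hν0 : 0 ≤ N - 2 - μ) (hK : 0 < K) (hf : 0 < f) (hg : 0 < g)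
    (hFle : F ≤ 0) (hGle : G ≤ 0)
    (hU1 : - (s * F) ≤ K * f) (hU2 : - (s * G) ≤ K * g)
    (hK1 : s ^ A * s ^ 2 * g ^ p ≤ K * (N + A) * f)
    (hK2 : s ^ B * s ^ 2 * f ^ q ≤ K * (N + B) * g) :
    pval N A B p q μ s f F g G ≤
      (K * K + K * (N + A) / (p + 1) + K * (N + B) / (q + 1)) * (s ^ (N - 2) * f * g) := by
  have hE : s ^ N = s ^ (N - 2) * s ^ 2 := by
    have := Real.rpow_add hs (N - 2) 2
    rw [show N - 2 + 2 = N by ring] at this
    rw [this]
    norm_num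
  have hEpos : 0 < s ^ (N - 2) := Real.rpow_pos_of_pos hs _
  have hTr : 0 < s ^ N / s := div_pos (Real.rpow_pos_of_pos hs N) hs
  generalize hEdef : s ^ (N - 2) = E at hE hEpos ⊢
  have ht1 : s ^ N * F * G ≤ E * (K * f * (K * g)) := by
    have h3 : 0 ≤ - (s * F) := by nlinarith
    have h4 : 0 ≤ - (s * G) := by nlinarith
    have h5 : (- (s * F)) * (- (s * G)) ≤ K * f * (K * g) :=
      mul_le_mul hU1 hU2 h4 (by positivity)
    have h6 : s ^ N * F * G = E * ((- (s * F)) * (- (s * G))) := by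
      rw [hE]; ring
    rw [h6]
    exact mul_le_mul_of_nonneg_left h5 hEpos.le
  have ht2 : s ^ N * s ^ A * g ^ (p + 1) / (p + 1) ≤ E * (K * (N + A) * f * g) / (p + 1) := by
    have h2 : s ^ N * s ^ A * g ^ (p + 1) = E * ((s ^ A * s ^ 2 * g ^ p) * g) := by
      rw [hE, Real.rpow_add_one hg.ne']; ring
    rw [h2]
    refine div_le_div_of_nonneg_right ?_ (by positivity)
    refine mul_le_mul_of_nonneg_left ?_ hEpos.le
    exact mul_le_mul_of_nonneg_right hK1 hg.le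
  have ht3 : s ^ N * s ^ B * f ^ (q + 1) / (q + 1) ≤ E * (K * (N + B) * g * f) / (q + 1) := by
    have h2 : s ^ N * s ^ B * f ^ (q + 1) = E * ((s ^ B * s ^ 2 * f ^ q) * f) := by
      rw [hE, Real.rpow_add_one hf.ne']; ring
    rw [h2]
    refine div_le_div_of_nonneg_right ?_ (by positivity)
    refine mul_le_mul_of_nonneg_left ?_ hEpos.le
    exact mul_le_mul_of_nonneg_right hK2 hf.le
  have hφf : s ^ N / s * F ≤ 0 := mul_nonpos_of_nonneg_of_nonpos hTr.le hFle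
  have hφg : s ^ N / s * G ≤ 0 := mul_nonpos_of_nonneg_of_nonpos hTr.le hGle
  have ht4 : μ * (s ^ N / s * F) * g ≤ 0 :=
    mul_nonpos_of_nonpos_of_nonneg (mul_nonpos_of_nonneg_of_nonpos hμ0 hφf) hg.le
  have ht5 : (N - 2 - μ) * f * (s ^ N / s * G) ≤ 0 :=
    mul_nonpos_of_nonneg_of_nonpos (by positivity) hφg
  have hfinal : (K * K + K * (N + A) / (p + 1) + K * (N + B) / (q + 1)) * (E * f * g) =
      E * (K * f * (K * g)) + E * (K * (N + A) * f * g) / (p + 1)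
        + E * (K * (N + B) * g * f) / (q + 1) := by
    field_simp
  rw [hfinal]
  unfold pval
  linarith

theorem pval_lower {N A B p q μ ε M r f F g G : ℝ} (hr : 0 < r) (hp : 0 < p) (hq : 0 < q)
    (hμ0 : 0 ≤ μ) (hν0 : 0 ≤ N - 2 - μ) (hε : 0 < ε) (hf : 0 < f) (hg : 0 < g)
    (hfM : f ≤ M) (hgM : g ≤ M) (hFle : F ≤ 0) (hGle : G ≤ 0)
    (h1 : - ε < r ^ N / r * F) (h2 : - ε < r ^ N / r * G) :
    - ((N - 2) * (ε * M)) ≤ pval N A B p q μ r f F g G := by
  have hT : 0 < r ^ N := Real.rpow_pos_of_pos hr N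
  have hTr : 0 < r ^ N / r := div_pos hT hr
  have ht1 : 0 ≤ r ^ N * F * G := by
    have : 0 ≤ F * G := mul_nonneg_of_nonpos_of_nonpos hFle hGle
    nlinarith
  have ht2 : 0 ≤ r ^ N * r ^ A * g ^ (p + 1) / (p + 1) := by
    have h4 : 0 < r ^ A := Real.rpow_pos_of_pos hr A
    have h5 : 0 < g ^ (p + 1) := Real.rpow_pos_of_pos hg _
    positivity
  have ht3 : 0 ≤ r ^ N * r ^ B * f ^ (q + 1) / (q + 1) := by
    have h4 : 0 < r ^ B := Real.rpow_pos_of_pos hr B
    have h5 : 0 < f ^ (q + 1) := Real.rpow_pos_of_pos hf _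
    positivity
  have hφf : r ^ N / r * F ≤ 0 := mul_nonpos_of_nonneg_of_nonpos hTr.le hFle
  have hφg : r ^ N / r * G ≤ 0 := mul_nonpos_of_nonneg_of_nonpos hTr.le hGle
  have ht4 : - (μ * (ε * M)) ≤ μ * (r ^ N / r * F) * g := by
    have h4 : - (ε * M) ≤ (r ^ N / r * F) * g := by nlinarith
    have h6 := mul_le_mul_of_nonneg_left h4 hμ0
    nlinarith
  have ht5 : - ((N - 2 - μ) * (ε * M)) ≤ (N - 2 - μ) * f * (r ^ N / r * G) := by
    have h4 : - (ε * M) ≤ f * (r ^ N / r * G) := by nlinarith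
    have h6 := mul_le_mul_of_nonneg_left h4 hν0
    nlinarith
  unfold pval
  nlinarith

/-- The sublinear case `p * q ≤ 1`. -/
theorem final_sub {A B p q C₁ C₂ : ℝ} {f g : ℝ → ℝ} (hA : -2 < A) (hB : -2 < B) (hp : 0 < p)
    (hpq : p * q ≤ 1)
    (hfpos : ∀ r, 0 < r → 0 < f r) (hfanti : ∀ x y, 0 < x → x ≤ y → f y ≤ f x)
    (hL1 : ∀ s, 0 < s → A * Real.log s + 2 * Real.log s + p * Real.log (g s) ≤
      Real.log C₁ + Real.log (f s))
    (hL2 : ∀ s, 0 < s → B * Real.log s + 2 * Real.log s + q * Real.log (f s) ≤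
      Real.log C₂ + Real.log (g s)) : False := by
  have hσpos : 0 < (A + 2) + p * (B + 2) := by
    have : 0 < p * (B + 2) := mul_pos hp (by linarith)
    linarith
  obtain ⟨σ, hσ⟩ : ∃ σ, σ = (A + 2) + p * (B + 2) := ⟨_, rfl⟩
  rw [← hσ] at hσpos
  obtain ⟨W, hW⟩ : ∃ W, W = Real.log C₁ + p * Real.log C₂ + (1 - p * q) * Real.log (f 1) := ⟨_, rfl⟩
  obtain ⟨x, hx⟩ : ∃ x, x = max 0 (W / σ) + 1 := ⟨_, rfl⟩
  have hx0 : 1 ≤ x := by
    rw [hx]; linarith [le_max_left 0 (W / σ)]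
  have hxW : W / σ < x := by
    rw [hx]; linarith [le_max_right 0 (W / σ)]
  have hspos : 0 < Real.exp x := Real.exp_pos x
  have hs1 : 1 ≤ Real.exp x := Real.one_le_exp (by linarith)
  have hlog : Real.log (Real.exp x) = x := Real.log_exp x
  have h1 := hL1 _ hspos
  have h2 := hL2 _ hspos
  rw [hlog] at h1 h2
  have h3 := mul_le_mul_of_nonneg_left h2 hp.le
  have h4 : Real.log (f (Real.exp x)) ≤ Real.log (f 1) :=
    Real.log_le_log (hfpos _ hspos) (hfanti 1 _ one_pos hs1)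
  have h5 := mul_le_mul_of_nonneg_left h4 (by linarith : (0 : ℝ) ≤ 1 - p * q)
  have h6 : W < x * σ := by rwa [div_lt_iff₀ hσpos] at hxW
  rw [hW, hσ] at h6
  nlinarith

/-- The superlinear case `p * q > 1`. -/
theorem final_super {N A B p q C₁ C₂ C P₁ : ℝ} {f g P : ℝ → ℝ} (hp : 0 < p) (hq : 0 < q)
    (hpq : 1 < p * q) (hsub : N - 2 < (N + A) / (p + 1) + (N + B) / (q + 1))
    (hfpos : ∀ r, 0 < r → 0 < f r) (hgpos : ∀ r, 0 < r → 0 < g r)
    (hCpos : 0 < C) (hP1 : 0 < P₁)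
    (hPmono : ∀ s, 1 ≤ s → P₁ ≤ P s)
    (hPup : ∀ s, 0 < s → P s ≤ C * (s ^ (N - 2) * f s * g s))
    (hL1 : ∀ s, 0 < s → A * Real.log s + 2 * Real.log s + p * Real.log (g s) ≤
      Real.log C₁ + Real.log (f s))
    (hL2 : ∀ s, 0 < s → B * Real.log s + 2 * Real.log s + q * Real.log (f s) ≤
      Real.log C₂ + Real.log (g s)) : False := by
  obtain ⟨D, hD⟩ : ∃ D, D = p * q - 1 := ⟨_, rfl⟩
  have hDpos : 0 < D := by rw [hD]; linarith
  obtain ⟨X, hX⟩ : ∃ X, X = (q + 1) * (A + 2) + (p + 1) * (B + 2) := ⟨_, rfl⟩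
  obtain ⟨η, hη⟩ : ∃ η, η = X - D * (N - 2) := ⟨_, rfl⟩
  have hηpos : 0 < η := by
    have h1 : N - 2 < ((N + A) * (q + 1) + (p + 1) * (N + B)) / ((p + 1) * (q + 1)) := by
      rw [← div_add_div _ _ (by positivity) (by positivity)]
      exact hsub
    rw [lt_div_iff₀ (by positivity)] at h1
    rw [hη, hX, hD]
    nlinarith
  obtain ⟨C₃, hC₃⟩ : ∃ C₃, C₃ = (q + 1) * Real.log C₁ + (p + 1) * Real.log C₂ := ⟨_, rfl⟩
  obtain ⟨Y, hY⟩ : ∃ Y, Y = Real.log (P₁ / C) := ⟨_, rfl⟩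
  obtain ⟨x, hx⟩ : ∃ x, x = max 0 ((C₃ - D * Y) / η) + 1 := ⟨_, rfl⟩
  have hx0 : 1 ≤ x := by
    rw [hx]; linarith [le_max_left 0 ((C₃ - D * Y) / η)]
  have hxW : (C₃ - D * Y) / η < x := by
    rw [hx]; linarith [le_max_right 0 ((C₃ - D * Y) / η)]
  have hspos : 0 < Real.exp x := Real.exp_pos x
  have hs1 : 1 ≤ Real.exp x := Real.one_le_exp (by linarith)
  have hlog : Real.log (Real.exp x) = x := Real.log_exp x
  have h1 := hL1 _ hspos
  have h2 := hL2 _ hspos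
  rw [hlog] at h1 h2
  have h3 := mul_le_mul_of_nonneg_left h1 (by linarith : (0 : ℝ) ≤ q + 1)
  have h4 := mul_le_mul_of_nonneg_left h2 (by linarith : (0 : ℝ) ≤ p + 1)
  have hfs := hfpos _ hspos
  have hgs := hgpos _ hspos
  have h6 : C₃ - D * Y < x * η := by rwa [div_lt_iff₀ hηpos] at hxW
  have h7 : D * ((N - 2) * x + Real.log (f (Real.exp x)) + Real.log (g (Real.exp x))) < D * Y := by
    subst hη hX hC₃ hD
    nlinarith
  have h8 : (N - 2) * x + Real.log (f (Real.exp x)) + Real.log (g (Real.exp x)) < Y :=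
    lt_of_mul_lt_mul_left h7 hDpos.le
  have h9 : Real.exp x ^ (N - 2) * f (Real.exp x) * g (Real.exp x) =
      Real.exp ((N - 2) * x + Real.log (f (Real.exp x)) + Real.log (g (Real.exp x))) := by
    rw [Real.exp_add, Real.exp_add, Real.exp_log hfs, Real.exp_log hgs,
      Real.rpow_def_of_pos hspos, hlog]
    ring_nf
  have h10 : Real.exp ((N - 2) * x + Real.log (f (Real.exp x)) + Real.log (g (Real.exp x)))
      < P₁ / C := by
    rw [hY] at h8
    have := Real.exp_lt_exp.mpr h8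
    rwa [Real.exp_log (div_pos hP1 hCpos)] at this
  have h11 := hPup _ hspos
  have h12 := hPmono _ hs1
  rw [h9] at h11
  rw [lt_div_iff₀ hCpos] at h10
  nlinarith

theorem pos_of_lower {P P' : ℝ → ℝ} (hPd : ∀ r, 0 < r → HasDerivAt P (P' r) r)
    (hP'pos : ∀ r, 0 < r → 0 < P' r)
    (hlow : ∀ e, 0 < e → ∃ r, 0 < r ∧ r ≤ 1 / 2 ∧ - e ≤ P r) : 0 < P 1 := by
  have hPhalf : 0 ≤ P (1 / 2) := by
    refine le_of_forall_pos_le_add fun e he => ?_
    obtain ⟨r, hr, hr12, hle⟩ := hlow e he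
    have hmono : P r ≤ P (1 / 2) :=
      mono_of_deriv hr12 hr (fun t h3 _ => hPd t (by linarith))
        (fun t h3 _ => (hP'pos t (by linarith)).le)
    linarith
  obtain ⟨ξ, hξ, hslope⟩ := exists_hasDerivAt_eq_slope P P' (a := 1 / 2) (b := 1) (by norm_num)
    (fun r hr => (hPd r (by linarith [hr.1])).continuousAt.continuousWithinAt)
    (fun r hr => hPd r (by linarith [hr.1]))
  have h3 := hP'pos ξ (by linarith [hξ.1])
  rw [hslope] at h3
  have h4 : (0 : ℝ) < 1 - 1 / 2 := by norm_num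
  have h5 : 0 < P 1 - P (1 / 2) := (div_pos_iff_of_pos_right h4).mp h3
  linarith

theorem exists_mu {N a b : ℝ} (hN : 2 < N) (ha : 0 < a) (hb : 0 < b) (hsub : N - 2 < a + b) :
    ∃ μ, 0 ≤ μ ∧ 0 ≤ N - 2 - μ ∧ 0 < a - μ ∧ 0 < b - (N - 2 - μ) := by
  have hab : 0 < a + b := by positivity
  have hτ0 : 0 < (N - 2) / (a + b) := div_pos (by linarith) hab
  have hτ1 : (N - 2) / (a + b) < 1 := (div_lt_one hab).mpr hsub
  obtain ⟨τ, hτ⟩ : ∃ τ, τ = (N - 2) / (a + b) := ⟨_, rfl⟩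
  rw [← hτ] at hτ0 hτ1
  have h1 : τ * (a + b) = N - 2 := by
    rw [hτ]; field_simp
  have hν : N - 2 - τ * a = τ * b := by linarith
  refine ⟨τ * a, by positivity, ?_, ?_, ?_⟩
  · rw [hν]; positivity
  · nlinarith
  · rw [hν]; nlinarith

/-- The radial ODE system has no positive solution bounded near the origin, in the subcritical
range, for `N > 2`, `A, B > -2`. -/
theorem radial_ode {N A B p q : ℝ} (hN : 2 < N) (hA : -2 < A) (hB : -2 < B)
    (hp : 0 < p) (hq : 0 < q)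
    (hsub : N - 2 < (N + A) / (p + 1) + (N + B) / (q + 1))
    {f F g G : ℝ → ℝ}
    (hf : ∀ r, 0 < r → HasDerivAt f (F r) r) (hg : ∀ r, 0 < r → HasDerivAt g (G r) r)
    (hF : ∀ r, 0 < r → HasDerivAt F (- ((N - 1) / r * F r + r ^ A * g r ^ p)) r)
    (hG : ∀ r, 0 < r → HasDerivAt G (- ((N - 1) / r * G r + r ^ B * f r ^ q)) r)
    (hfpos : ∀ r, 0 < r → 0 < f r) (hgpos : ∀ r, 0 < r → 0 < g r)
    {M δ : ℝ} (hδ : 0 < δ) (hMf : ∀ r, 0 < r → r < δ → f r ≤ M)
    (hMg : ∀ r, 0 < r → r < δ → g r ≤ M) : False := by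
  have hNA : 0 < N + A := by linarith
  have hNB : 0 < N + B := by linarith
  have hN1 : 1 < N := by linarith
  have hTr : ∀ r : ℝ, 0 < r → 0 < r ^ N / r := fun r hr => div_pos (Real.rpow_pos_of_pos hr N) hr
  have hφf := fun (r : ℝ) (hr : 0 < r) => flux_deriv (N := N) (r := r) hr (hF r hr)
  have hφg := fun (r : ℝ) (hr : 0 < r) => flux_deriv (N := N) (r := r) hr (hG r hr)
  have hfa : ∀ x y, 0 < x → x ≤ y → y ^ N / y * F y ≤ x ^ N / x * F x := by
    intro x y hx hxy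
    refine anti_of_deriv hxy hx (fun r h1 _ => hφf r (by linarith)) (fun r h1 _ => ?_)
    have hr : 0 < r := by linarith
    have h2 := hTr r hr
    have h3 : 0 < r ^ A := Real.rpow_pos_of_pos hr A
    have h4 : 0 < g r ^ p := Real.rpow_pos_of_pos (hgpos r hr) p
    have : 0 < r ^ N / r * (r ^ A * g r ^ p) := by positivity
    linarith
  have hga : ∀ x y, 0 < x → x ≤ y → y ^ N / y * G y ≤ x ^ N / x * G x := by
    intro x y hx hxy
    refine anti_of_deriv hxy hx (fun r h1 _ => hφg r (by linarith)) (fun r h1 _ => ?_)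
    have hr : 0 < r := by linarith
    have h2 := hTr r hr
    have h3 : 0 < r ^ B := Real.rpow_pos_of_pos hr B
    have h4 : 0 < f r ^ q := Real.rpow_pos_of_pos (hfpos r hr) q
    have : 0 < r ^ N / r * (r ^ B * f r ^ q) := by positivity
    linarith
  have hφfle : ∀ r, 0 < r → r ^ N / r * F r ≤ 0 := fun r hr =>
    phi_nonpos hN hf hfa hfpos hr
  have hφgle : ∀ r, 0 < r → r ^ N / r * G r ≤ 0 := fun r hr =>
    phi_nonpos hN hg hga hgpos hr
  have hFle : ∀ r, 0 < r → F r ≤ 0 := fun r hr =>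
    nonpos_of_mul_nonpos_right (hφfle r hr) (hTr r hr)
  have hGle : ∀ r, 0 < r → G r ≤ 0 := fun r hr =>
    nonpos_of_mul_nonpos_right (hφgle r hr) (hTr r hr)
  have hfanti : ∀ x y, 0 < x → x ≤ y → f y ≤ f x := fun x y hx hxy =>
    anti_of_deriv hxy hx (fun r h1 _ => hf r (by linarith)) (fun r h1 _ => hFle r (by linarith))
  have hganti : ∀ x y, 0 < x → x ≤ y → g y ≤ g x := fun x y hx hxy =>
    anti_of_deriv hxy hx (fun r h1 _ => hg r (by linarith)) (fun r h1 _ => hGle r (by linarith))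
  have hK1 : ∀ s, 0 < s → s ^ A * s ^ 2 * g s ^ p ≤ 2 ^ (N - 1) * (N + A) * f s := fun s hs =>
    flux_comb hN1 hNA hp hf hφf hfa hφfle hFle hfpos hgpos hganti hs
  have hK2 : ∀ s, 0 < s → s ^ B * s ^ 2 * f s ^ q ≤ 2 ^ (N - 1) * (N + B) * g s := fun s hs =>
    flux_comb hN1 hNB hq hg hφg hga hφgle hGle hgpos hfpos hfanti hs
  have hU1 : ∀ s, 0 < s → - (s * F s) ≤ 2 ^ (N - 1) * f s := fun s hs =>
    flux_upper hN1 hf hfa hFle hfpos hs
  have hU2 : ∀ s, 0 < s → - (s * G s) ≤ 2 ^ (N - 1) * g s := fun s hs =>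
    flux_upper hN1 hg hga hGle hgpos hs
  have hK : (0 : ℝ) < 2 ^ (N - 1) := Real.rpow_pos_of_pos (by norm_num) _
  have hL1 : ∀ s, 0 < s → A * Real.log s + 2 * Real.log s + p * Real.log (g s) ≤
      Real.log (2 ^ (N - 1) * (N + A)) + Real.log (f s) := fun s hs =>
    log_comb hs (hgpos s hs) (hfpos s hs) (by positivity) (hK1 s hs)
  have hL2 : ∀ s, 0 < s → B * Real.log s + 2 * Real.log s + q * Real.log (f s) ≤
      Real.log (2 ^ (N - 1) * (N + B)) + Real.log (g s) := fun s hs =>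
    log_comb hs (hfpos s hs) (hgpos s hs) (by positivity) (hK2 s hs)
  rcases le_or_gt (p * q) 1 with hpq | hpq
  · exact final_sub hA hB hp hpq hfpos hfanti hL1 hL2
  obtain ⟨μ, hμ0, hν0, hμa, hνb⟩ := exists_mu (a := (N + A) / (p + 1)) (b := (N + B) / (q + 1))
    hN (by positivity) (by positivity) hsub
  have hPd : ∀ r, 0 < r → HasDerivAt (fun r => pval N A B p q μ r (f r) (F r) (g r) (G r))
      (((N + A) / (p + 1) - μ) * (r ^ N / r * (r ^ A * (g r ^ p * g r)))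
        + ((N + B) / (q + 1) - (N - 2 - μ)) * (r ^ N / r * (r ^ B * (f r ^ q * f r)))) r :=
    fun r hr => pohozaev_deriv hr hp hq (hf r hr) (hg r hr) (hF r hr) (hG r hr) (hfpos r hr) (hgpos r hr)
  have hP'pos : ∀ r, 0 < r → 0 < ((N + A) / (p + 1) - μ) * (r ^ N / r * (r ^ A * (g r ^ p * g r)))
        + ((N + B) / (q + 1) - (N - 2 - μ)) * (r ^ N / r * (r ^ B * (f r ^ q * f r))) := by
    intro r hr
    have h2 := hTr r hr
    have h3 : 0 < r ^ A := Real.rpow_pos_of_pos hr A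
    have h4 : 0 < g r ^ p := Real.rpow_pos_of_pos (hgpos r hr) p
    have h5 : 0 < r ^ B := Real.rpow_pos_of_pos hr B
    have h6 : 0 < f r ^ q := Real.rpow_pos_of_pos (hfpos r hr) q
    have h7 := hgpos r hr
    have h8 := hfpos r hr
    positivity
  have hMpos : 0 < M :=
    lt_of_lt_of_le (hfpos (δ / 2) (by linarith)) (hMf _ (by linarith) (by linarith))
  have hP1 : 0 < pval N A B p q μ 1 (f 1) (F 1) (g 1) (G 1) := by
    refine pos_of_lower (P := fun r => pval N A B p q μ r (f r) (F r) (g r) (G r)) hPd hP'pos ?_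
    intro e he
    have hεpos : 0 < e / ((N - 2) * M) := div_pos he (mul_pos (by linarith) hMpos)
    obtain ⟨r₁, hr₁, h1⟩ := phi_small hN hf hfa hδ hMf hεpos
    obtain ⟨r₂, hr₂, h2⟩ := phi_small hN hg hga hδ hMg hεpos
    obtain ⟨r, hr⟩ : ∃ r, r = min (min (1 / 2) (δ / 2)) (min (r₁ / 2) (r₂ / 2)) := ⟨_, rfl⟩
    have hrpos : 0 < r := by
      rw [hr]
      exact lt_min (lt_min (by norm_num) (by linarith)) (lt_min (by linarith) (by linarith))
    have hr12 : r ≤ 1 / 2 := by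
      rw [hr]; exact le_trans (min_le_left _ _) (min_le_left _ _)
    have hrδ : r < δ := by
      have : r ≤ δ / 2 := by
        rw [hr]; exact le_trans (min_le_left _ _) (min_le_right _ _)
      linarith
    have hrr₁ : r < r₁ := by
      have : r ≤ r₁ / 2 := by
        rw [hr]; exact le_trans (min_le_right _ _) (min_le_left _ _)
      linarith
    have hrr₂ : r < r₂ := by
      have : r ≤ r₂ / 2 := by
        rw [hr]; exact le_trans (min_le_right _ _) (min_le_right _ _)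
      linarith
    refine ⟨r, hrpos, hr12, ?_⟩
    have hlow := pval_lower (N := N) (A := A) (B := B) (p := p) (q := q) (μ := μ) (M := M) hrpos hp hq
      hμ0 hν0 hεpos (hfpos r hrpos) (hgpos r hrpos)
      (hMf r hrpos hrδ) (hMg r hrpos hrδ) (hFle r hrpos) (hGle r hrpos)
      (h1 r hrpos hrr₁) (h2 r hrpos hrr₂)
    have h7 : (N - 2) * (e / ((N - 2) * M) * M) = e := by
      have h8 : (N - 2) ≠ 0 := by linarith
      have h9 : M ≠ 0 := hMpos.ne'
      field_simp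
    rw [h7] at hlow
    exact hlow
  refine final_super (P := fun r => pval N A B p q μ r (f r) (F r) (g r) (G r)) hp hq hpq hsub
    hfpos hgpos (C := 2 ^ (N - 1) * 2 ^ (N - 1) + 2 ^ (N - 1) * (N + A) / (p + 1)
      + 2 ^ (N - 1) * (N + B) / (q + 1)) (by positivity) hP1 ?_ ?_ hL1 hL2
  · intro s hs
    exact mono_of_deriv hs one_pos (fun t h3 _ => hPd t (by linarith))
      (fun t h3 _ => (hP'pos t (by linarith)).le)
  · intro s hs
    exact pval_upper hs hN hNA hNB hp hq hμ0 hν0 hK (hfpos s hs) (hgpos s hs)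
      (hFle s hs) (hGle s hs) (hU1 s hs) (hU2 s hs) (hK1 s hs) (hK2 s hs)

end Vale.Agent.P100h3
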