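import Mathlib

open Filter Topology Set

namespace Vale.Agent.P100h3

theorem hasDerivAt_rpow_div (c : ℝ) {r : ℝ} (hr : 0 < r) :
    HasDerivAt (fun x : ℝ => x ^ c) (c * r ^ c / r) r := by
  have := Real.hasDerivAt_rpow_const (x := r) (p := c) (Or.inl hr.ne')
  rwa [Real.rpow_sub_one hr.ne', ← mul_div_assoc] at this

theorem mono_of_deriv {h h' : ℝ → ℝ} {a b : ℝ} (hab : a ≤ b) (_ha : 0 < a)
    (hd : ∀ r, a ≤ r → r ≤ b → HasDerivAt h (h' r) r)
    (hn : ∀ r, a ≤ r → r ≤ b → 0 ≤ h' r) : h a ≤ h b := by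
  have h1 : MonotoneOn h (Icc a b) := by
    refine monotoneOn_of_deriv_nonneg (convex_Icc a b)
      (fun r hr => (hd r hr.1 hr.2).continuousAt.continuousWithinAt)
      (fun r hr => ?_) (fun r hr => ?_)
    · rw [interior_Icc] at hr
      exact (hd r hr.1.le hr.2.le).differentiableAt.differentiableWithinAt
    · rw [interior_Icc] at hr
      rw [(hd r hr.1.le hr.2.le).deriv]
      exact hn r hr.1.le hr.2.le
  exact h1 ⟨le_refl a, hab⟩ ⟨hab, le_refl b⟩ hab

theorem anti_of_deriv {h h' : ℝ → ℝ} {a b : ℝ} (hab : a ≤ b) (ha : 0 < a)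
    (hd : ∀ r, a ≤ r → r ≤ b → HasDerivAt h (h' r) r)
    (hn : ∀ r, a ≤ r → r ≤ b → h' r ≤ 0) : h b ≤ h a := by
  have := mono_of_deriv (h := fun r => - h r) (h' := fun r => - h' r) hab ha
    (fun r h1 h2 => (hd r h1 h2).neg) (fun r h1 h2 => by linarith [hn r h1 h2])
  simpa using this

theorem rpow_mul_two_sub {N r : ℝ} (hr : 0 < r) : r ^ N / r * (r ^ (2 - N) / r) = 1 := by
  have h1 : r ^ N * r ^ (2 - N) = r ^ (2 : ℝ) := by
    rw [← Real.rpow_add hr]; congr 1; ring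
  have h2 : r ^ (2 : ℝ) = r ^ 2 := by norm_num
  have h3 : r ^ N / r * (r ^ (2 - N) / r) = (r ^ N * r ^ (2 - N)) / (r ^ 2) := by
    field_simp
  rw [h3, h1, h2]
  field_simp

theorem tendsto_rpow_two_sub {N : ℝ} (hN : 2 < N) :
    Tendsto (fun r : ℝ => r ^ (2 - N)) (𝓝[>] 0) atTop :=
  tendsto_rpow_neg_nhdsGT_zero (by linarith)

/-- Let `φ r = r ^ (N - 1) * F r`, with `F = f'`. If `φ` is antitone and `f > 0`, then `φ ≤ 0`. -/
theorem phi_nonpos {N : ℝ} {f F : ℝ → ℝ} (hN : 2 < N)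
    (hf : ∀ r, 0 < r → HasDerivAt f (F r) r)
    (hanti : ∀ x y, 0 < x → x ≤ y → y ^ N / y * F y ≤ x ^ N / x * F x)
    (hpos : ∀ r, 0 < r → 0 < f r) {r₀ : ℝ} (hr₀ : 0 < r₀) : r₀ ^ N / r₀ * F r₀ ≤ 0 := by
  by_contra hcon
  push Not at hcon
  set η : ℝ := r₀ ^ N / r₀ * F r₀ with hη
  have hN2 : 0 < N - 2 := by linarith
  set Z : ℝ := f r₀ + η * r₀ ^ (2 - N) / (N - 2) with hZ
  have hkey : ∀ r, 0 < r → r ≤ r₀ → η * r ^ (2 - N) / (N - 2) < Z := by
    intro r hr hrr
    have hmono := mono_of_deriv (a := r) (b := r₀)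
      (h := fun s => f s + η * s ^ (2 - N) / (N - 2))
      (h' := fun s => F s + η * ((2 - N) * s ^ (2 - N) / s) / (N - 2)) hrr hr
      (fun s h1 _ => ((hf s (by linarith)).add
        (((hasDerivAt_rpow_div (2 - N) (by linarith)).const_mul η).div_const (N - 2))))
      (fun s h1 h2 => by
        have hs : 0 < s := by linarith
        have h3 : η ≤ s ^ N / s * F s := hanti s r₀ hs h2
        have hT : 0 < s ^ N / s := div_pos (Real.rpow_pos_of_pos hs N) hs
        have h4 := rpow_mul_two_sub (N := N) hs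
        have h5 : η * (s ^ (2 - N) / s) ≤ F s := by
          have h6 : η * (s ^ (2 - N) / s) * (s ^ N / s) ≤ F s * (s ^ N / s) := by
            calc η * (s ^ (2 - N) / s) * (s ^ N / s) = η * (s ^ N / s * (s ^ (2 - N) / s)) := by ring
              _ = η := by rw [h4]; ring
              _ ≤ s ^ N / s * F s := h3
              _ = F s * (s ^ N / s) := by ring
          exact le_of_mul_le_mul_right h6 hT
        have h7 : η * ((2 - N) * s ^ (2 - N) / s) / (N - 2) = - (η * (s ^ (2 - N) / s)) := by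
          field_simp
          ring
        rw [h7]
        linarith)
    have := hpos r hr
    linarith
  have hev : ∀ᶠ r in 𝓝[>] (0 : ℝ), (N - 2) * (Z + 1) / η < r ^ (2 - N) :=
    (tendsto_rpow_two_sub hN).eventually (eventually_gt_atTop _)
  have hev2 : ∀ᶠ r in 𝓝[>] (0 : ℝ), r ∈ Ioo 0 r₀ := Ioo_mem_nhdsGT hr₀
  obtain ⟨r, h1, h2⟩ := (hev.and hev2).exists
  have h3 := hkey r h2.1 h2.2.le
  have h4 : (N - 2) * (Z + 1) < r ^ (2 - N) * η := by
    rwa [div_lt_iff₀ hcon] at h1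
  have h5 : η * r ^ (2 - N) / (N - 2) < Z := h3
  rw [div_lt_iff₀ hN2] at h5
  nlinarith

/-- `φ r → 0` as `r → 0`, when `f` is bounded near the origin. -/
theorem phi_small {N : ℝ} {f F : ℝ → ℝ} (hN : 2 < N)
    (hf : ∀ r, 0 < r → HasDerivAt f (F r) r)
    (hanti : ∀ x y, 0 < x → x ≤ y → y ^ N / y * F y ≤ x ^ N / x * F x)
    {M δ : ℝ} (hδ : 0 < δ) (hM : ∀ r, 0 < r → r < δ → f r ≤ M)
    {ε : ℝ} (hε : 0 < ε) : ∃ r₀, 0 < r₀ ∧ ∀ r, 0 < r → r < r₀ → - ε < r ^ N / r * F r := by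
  by_contra hcon
  push Not at hcon
  have hall : ∀ s, 0 < s → s ^ N / s * F s ≤ - ε := by
    intro s hs
    obtain ⟨r, hr, hrs, hle⟩ := hcon s hs
    exact le_trans (hanti r s hr hrs.le) hle
  have hN2 : 0 < N - 2 := by linarith
  have hkey : ∀ r, 0 < r → r ≤ 1 →
      f 1 - ε * (1 : ℝ) ^ (2 - N) / (N - 2) + ε * r ^ (2 - N) / (N - 2) ≤ f r := by
    intro r hr hr1
    have hanti' := anti_of_deriv (a := r) (b := 1)
      (h := fun s => f s - ε * s ^ (2 - N) / (N - 2))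
      (h' := fun s => F s - ε * ((2 - N) * s ^ (2 - N) / s) / (N - 2)) hr1 hr
      (fun s h1 _ => ((hf s (by linarith)).sub
        (((hasDerivAt_rpow_div (2 - N) (by linarith)).const_mul ε).div_const (N - 2))))
      (fun s h1 _ => by
        have hs : 0 < s := by linarith
        have h3 := hall s hs
        have hT : 0 < s ^ N / s := div_pos (Real.rpow_pos_of_pos hs N) hs
        have h4 := rpow_mul_two_sub (N := N) hs
        have h5 : F s ≤ - (ε * (s ^ (2 - N) / s)) := by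
          have h6 : F s * (s ^ N / s) ≤ - (ε * (s ^ (2 - N) / s)) * (s ^ N / s) := by
            calc F s * (s ^ N / s) = s ^ N / s * F s := by ring
              _ ≤ - ε := h3
              _ = - (ε * (s ^ N / s * (s ^ (2 - N) / s))) := by rw [h4]; ring
              _ = - (ε * (s ^ (2 - N) / s)) * (s ^ N / s) := by ring
          exact le_of_mul_le_mul_right h6 hT
        have h7 : ε * ((2 - N) * s ^ (2 - N) / s) / (N - 2) = - (ε * (s ^ (2 - N) / s)) := by
          field_simp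
          ring
        rw [h7]
        linarith)
    linarith
  set Z : ℝ := f 1 - ε * (1 : ℝ) ^ (2 - N) / (N - 2) with hZ
  have hev : ∀ᶠ r in 𝓝[>] (0 : ℝ), (N - 2) * (M - Z + 1) / ε < r ^ (2 - N) :=
    (tendsto_rpow_two_sub hN).eventually (eventually_gt_atTop _)
  have hev2 : ∀ᶠ r in 𝓝[>] (0 : ℝ), r ∈ Ioo 0 (min δ 1) := Ioo_mem_nhdsGT (lt_min hδ one_pos)
  obtain ⟨r, h1, h2⟩ := (hev.and hev2).exists
  have hr := h2.1
  have hrδ : r < δ := lt_of_lt_of_le h2.2 (min_le_left _ _)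
  have hr1 : r < 1 := lt_of_lt_of_le h2.2 (min_le_right _ _)
  have h3 := hkey r hr hr1.le
  have h4 := hM r hr hrδ
  have h5 : (N - 2) * (M - Z + 1) < r ^ (2 - N) * ε := by
    rwa [div_lt_iff₀ hε] at h1
  have h6 : Z + ε * r ^ (2 - N) / (N - 2) ≤ M := by linarith
  have h7 : ε * r ^ (2 - N) / (N - 2) ≤ M - Z := by linarith
  rw [div_le_iff₀ hN2] at h7
  nlinarith

end Vale.Agent.P100h3
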