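import Vale.Agent.P100h3.OdeOne

open Filter Topology Set

namespace Vale.Agent.P100h3

theorem flux_lower {N A p : ℝ} {F g : ℝ → ℝ} (hNA : 0 < N + A) (hp : 0 < p)
    (hφ : ∀ r, 0 < r → HasDerivAt (fun r => r ^ N / r * F r) (- (r ^ N / r * (r ^ A * g r ^ p))) r)
    (hφle : ∀ r, 0 < r → r ^ N / r * F r ≤ 0)
    (hgpos : ∀ r, 0 < r → 0 < g r) (hganti : ∀ x y, 0 < x → x ≤ y → g y ≤ g x)
    {s : ℝ} (hs : 0 < s) : g s ^ p * s ^ (N + A) / (N + A) ≤ - (s ^ N / s * F s) := by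
  set c : ℝ := g s ^ p with hc
  have hcpos : 0 < c := Real.rpow_pos_of_pos (hgpos s hs) p
  have hkey : ∀ r, 0 < r → r ≤ s →
      - (c * r ^ (N + A) / (N + A)) ≤ - (s ^ N / s * F s) - c * s ^ (N + A) / (N + A) := by
    intro r hr hrs
    have hmono := mono_of_deriv (a := r) (b := s)
      (h := fun t => - (t ^ N / t * F t) - c * t ^ (N + A) / (N + A))
      (h' := fun t => (t ^ N / t * (t ^ A * g t ^ p)) - c * ((N + A) * t ^ (N + A) / t) / (N + A))
      hrs hr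
      (fun t h1 _ => by
        have ht : 0 < t := by linarith
        have h2 := (hφ t ht).neg
        have h3 := ((hasDerivAt_rpow_div (N + A) ht).const_mul c).div_const (N + A)
        have h4 := h2.sub h3
        exact HasDerivAt.congr_deriv h4 (by ring))
      (fun t h1 h2 => by
        have ht : 0 < t := by linarith
        have h3 : c ≤ g t ^ p :=
          Real.rpow_le_rpow (hgpos s hs).le (hganti t s ht h2) hp.le
        have h5 : t ^ (N + A) = t ^ N * t ^ A := Real.rpow_add ht N A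
        have h6 : c * ((N + A) * t ^ (N + A) / t) / (N + A) = t ^ N / t * (t ^ A * c) := by
          rw [h5]
          field_simp
        rw [h6]
        have hT : 0 < t ^ N / t * t ^ A :=
          mul_pos (div_pos (Real.rpow_pos_of_pos ht N) ht) (Real.rpow_pos_of_pos ht A)
        nlinarith)
    have h7 := hφle r hr
    linarith
  have hlim : Tendsto (fun r : ℝ => - (c * r ^ (N + A) / (N + A))) (𝓝[>] 0) (𝓝 0) := by
    have h1 : ContinuousAt (fun r : ℝ => r ^ (N + A)) 0 :=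
      Real.continuousAt_rpow_const 0 (N + A) (Or.inr hNA.le)
    have h2 : Tendsto (fun r : ℝ => r ^ (N + A)) (𝓝 0) (𝓝 0) := by
      have h3 := h1.tendsto
      rwa [Real.zero_rpow hNA.ne'] at h3
    have h4 := ((h2.const_mul c).div_const (N + A)).neg
    simp only [mul_zero, zero_div, neg_zero] at h4
    exact h4.mono_left nhdsWithin_le_nhds
  have h0 : 0 ≤ - (s ^ N / s * F s) - c * s ^ (N + A) / (N + A) := by
    refine le_of_tendsto hlim ?_
    filter_upwards [Ioo_mem_nhdsGT hs] with r hr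
    exact hkey r hr.1 hr.2.le
  linarith

theorem flux_upper {N : ℝ} {f F : ℝ → ℝ} (hN : 1 < N)
    (hf : ∀ r, 0 < r → HasDerivAt f (F r) r)
    (hanti : ∀ x y, 0 < x → x ≤ y → y ^ N / y * F y ≤ x ^ N / x * F x)
    (hFle : ∀ r, 0 < r → F r ≤ 0) (hpos : ∀ r, 0 < r → 0 < f r)
    {s : ℝ} (hs : 0 < s) : - (s * F s) ≤ 2 ^ (N - 1) * f s := by
  have h2s : s < 2 * s := by linarith
  obtain ⟨ξ, hξ, hslope⟩ := exists_hasDerivAt_eq_slope f F h2s
    (fun r hr => (hf r (by linarith [hr.1])).continuousAt.continuousWithinAt)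
    (fun r hr => hf r (by linarith [hr.1]))
  have hξpos : 0 < ξ := by linarith [hξ.1]
  have hsub : 2 * s - s = s := by ring
  rw [hsub] at hslope
  have hfd : F ξ * s = f (2 * s) - f s := by
    rw [hslope]; field_simp
  have hcvt : ∀ r : ℝ, 0 < r → r ^ N / r = r ^ (N - 1) := fun r hr =>
    (Real.rpow_sub_one hr.ne' N).symm
  have h1 : ξ ^ (N - 1) ≤ (2 * s) ^ (N - 1) :=
    Real.rpow_le_rpow hξpos.le hξ.2.le (by linarith)
  have h2 : (2 * s) ^ (N - 1) = 2 ^ (N - 1) * s ^ (N - 1) :=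
    Real.mul_rpow (by norm_num) hs.le
  have h3 : ξ ^ (N - 1) * F ξ ≤ s ^ (N - 1) * F s := by
    have := hanti s ξ hs hξ.1.le
    rwa [hcvt ξ hξpos, hcvt s hs] at this
  have hFξ := hFle ξ hξpos
  have h4 : 2 ^ (N - 1) * s ^ (N - 1) * F ξ ≤ ξ ^ (N - 1) * F ξ := by
    rw [← h2]
    exact mul_le_mul_of_nonpos_right h1 hFξ
  have hsp : 0 < s ^ (N - 1) := Real.rpow_pos_of_pos hs _
  have h5 : 2 ^ (N - 1) * F ξ ≤ F s := by
    have h6 : (2 ^ (N - 1) * F ξ) * s ^ (N - 1) ≤ F s * s ^ (N - 1) := by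
      calc (2 ^ (N - 1) * F ξ) * s ^ (N - 1) = 2 ^ (N - 1) * s ^ (N - 1) * F ξ := by ring
        _ ≤ ξ ^ (N - 1) * F ξ := h4
        _ ≤ s ^ (N - 1) * F s := h3
        _ = F s * s ^ (N - 1) := by ring
    exact le_of_mul_le_mul_right h6 hsp
  have h7 : s * (2 ^ (N - 1) * F ξ) ≤ s * F s := mul_le_mul_of_nonneg_left h5 hs.le
  have h8 : s * (2 ^ (N - 1) * F ξ) = 2 ^ (N - 1) * (f (2 * s) - f s) := by
    rw [← hfd]; ring
  have h9 : (0 : ℝ) < 2 ^ (N - 1) := Real.rpow_pos_of_pos (by norm_num) _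
  have h10 := hpos (2 * s) (by linarith)
  have h11 : 2 ^ (N - 1) * (f (2 * s) - f s) ≥ - (2 ^ (N - 1) * f s) := by
    have : 0 ≤ 2 ^ (N - 1) * f (2 * s) := by positivity
    nlinarith
  linarith

/-- The pointwise bound `s ^ (A + 2) * g ^ p ≤ C * f`. -/
theorem flux_comb {N A p : ℝ} {f F g : ℝ → ℝ} (hN : 1 < N) (hNA : 0 < N + A) (hp : 0 < p)
    (hf : ∀ r, 0 < r → HasDerivAt f (F r) r)
    (hφ : ∀ r, 0 < r → HasDerivAt (fun r => r ^ N / r * F r) (- (r ^ N / r * (r ^ A * g r ^ p))) r)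
    (hanti : ∀ x y, 0 < x → x ≤ y → y ^ N / y * F y ≤ x ^ N / x * F x)
    (hφle : ∀ r, 0 < r → r ^ N / r * F r ≤ 0)
    (hFle : ∀ r, 0 < r → F r ≤ 0) (hpos : ∀ r, 0 < r → 0 < f r)
    (hgpos : ∀ r, 0 < r → 0 < g r) (hganti : ∀ x y, 0 < x → x ≤ y → g y ≤ g x)
    {s : ℝ} (hs : 0 < s) :
    s ^ A * s ^ 2 * g s ^ p ≤ 2 ^ (N - 1) * (N + A) * f s := by
  have h1 := flux_lower hNA hp hφ hφle hgpos hganti hs
  have h2 := flux_upper hN hf hanti hFle hpos hs
  have h5 : s ^ (N + A) = s ^ N * s ^ A := Real.rpow_add hs N A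
  have hT : 0 < s ^ N := Real.rpow_pos_of_pos hs N
  have hU : 0 < s ^ A := Real.rpow_pos_of_pos hs A
  have h3 : g s ^ p * s ^ A * s / (N + A) ≤ - F s := by
    rw [h5] at h1
    have h6 : g s ^ p * (s ^ N * s ^ A) / (N + A) = s ^ N / s * (g s ^ p * s ^ A * s / (N + A)) := by
      field_simp
    have h7 : - (s ^ N / s * F s) = s ^ N / s * (- F s) := by ring
    rw [h6, h7] at h1
    exact le_of_mul_le_mul_left h1 (div_pos hT hs)
  have h4 : g s ^ p * s ^ A * s * s / (N + A) ≤ 2 ^ (N - 1) * f s := by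
    have h8 : g s ^ p * s ^ A * s * s / (N + A) = s * (g s ^ p * s ^ A * s / (N + A)) := by ring
    rw [h8]
    have h9 := mul_le_mul_of_nonneg_left h3 hs.le
    nlinarith
  rw [div_le_iff₀ hNA] at h4
  nlinarith

/-- Pohozaev function derivative. -/
theorem pohozaev_deriv {N A B p q μ : ℝ} {f F g G : ℝ → ℝ} {r : ℝ} (hr : 0 < r)
    (hp : 0 < p) (hq : 0 < q)
    (hf : HasDerivAt f (F r) r) (hg : HasDerivAt g (G r) r)
    (hF : HasDerivAt F (- ((N - 1) / r * F r + r ^ A * g r ^ p)) r)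
    (hG : HasDerivAt G (- ((N - 1) / r * G r + r ^ B * f r ^ q)) r)
    (hfp : 0 < f r) (hgp : 0 < g r) :
    HasDerivAt (fun r => r ^ N * F r * G r + r ^ N * r ^ A * g r ^ (p + 1) / (p + 1)
        + r ^ N * r ^ B * f r ^ (q + 1) / (q + 1)
        + μ * (r ^ N / r * F r) * g r + (N - 2 - μ) * f r * (r ^ N / r * G r))
      (((N + A) / (p + 1) - μ) * (r ^ N / r * (r ^ A * (g r ^ p * g r)))
        + ((N + B) / (q + 1) - (N - 2 - μ)) * (r ^ N / r * (r ^ B * (f r ^ q * f r)))) r := by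
  have hT := hasDerivAt_rpow_div N hr
  have hU := hasDerivAt_rpow_div A hr
  have hV := hasDerivAt_rpow_div B hr
  have hgp1 : HasDerivAt (fun r => g r ^ (p + 1)) (G r * (p + 1) * g r ^ p) r := by
    have := hg.rpow_const (p := p + 1) (Or.inl hgp.ne')
    simpa using this
  have hfq1 : HasDerivAt (fun r => f r ^ (q + 1)) (F r * (q + 1) * f r ^ q) r := by
    have := hf.rpow_const (p := q + 1) (Or.inl hfp.ne')
    simpa using this
  have hid : HasDerivAt (fun r : ℝ => r) 1 r := hasDerivAt_id r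
  have ht1 := (hT.mul hF).mul hG
  have ht2 := ((hT.mul hU).mul hgp1).div_const (p + 1)
  have ht3 := ((hT.mul hV).mul hfq1).div_const (q + 1)
  have hTr := hT.div hid hr.ne'
  have ht4 := ((hTr.mul hF).const_mul μ).mul hg
  have ht5 := (hf.const_mul (N - 2 - μ)).mul (hTr.mul hG)
  have hall := ((((ht1.add ht2).add ht3).add ht4).add ht5)
  refine HasDerivAt.congr_deriv hall ?_
  simp only [Pi.mul_apply, Pi.div_apply]
  rw [Real.rpow_add_one hgp.ne', Real.rpow_add_one hfp.ne']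
  field_simp
  ring

end Vale.Agent.P100h3
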