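import Vale.Agent.P100h3.Core

open Filter Topology Laplacian InnerProductSpace

namespace Vale.Agent.P100h3

variable {E : Type*} [NormedAddCommGroup E] [InnerProductSpace ℝ E] [FiniteDimensional ℝ E]

omit [FiniteDimensional ℝ E] in
theorem radial_line {f F : ℝ → ℝ} {f₂ : ℝ} {x e : E} (hx : x ≠ 0) (he : ‖e‖ = 1)
    (hf : ∀ s, 0 < s → HasDerivAt f (F s) s) (hF : HasDerivAt F f₂ ‖x‖) :
    deriv (deriv (fun t : ℝ => f ‖x + t • e‖)) 0 =
      f₂ * (inner ℝ x e) ^ 2 / ‖x‖ ^ 2 + F ‖x‖ * (1 / ‖x‖ - (inner ℝ x e) ^ 2 / ‖x‖ ^ 3) := by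
  set r : ℝ := ‖x‖ with hr
  have hrpos : 0 < r := norm_pos_iff.mpr hx
  set β : ℝ := inner ℝ x e with hβ
  set τ : ℝ → ℝ := fun t => ‖x + t • e‖ with hτ
  set ρ : ℝ → ℝ := fun t => r ^ 2 + 2 * β * t + t ^ 2 with hρ
  have hρeq : ∀ t : ℝ, ‖x + t • e‖ ^ 2 = ρ t := by
    intro t
    rw [norm_add_sq_real, inner_smul_right, norm_smul, he]
    simp only [hρ, mul_one, Real.norm_eq_abs, sq_abs]
    ring
  have hτsqrt : ∀ t, τ t = Real.sqrt (ρ t) := by
    intro t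
    simp only [hτ]
    rw [← hρeq t, Real.sqrt_sq (norm_nonneg _)]
  have hτ0 : τ 0 = r := by simp [hτ, hr]
  have hρd : ∀ t : ℝ, HasDerivAt ρ (2 * β + 2 * t) t := by
    intro t
    have h1 : HasDerivAt (fun t : ℝ => 2 * β * t) (2 * β) t := by
      simpa using (hasDerivAt_id t).const_mul (2 * β)
    have h2 : HasDerivAt (fun t : ℝ => t ^ 2) (2 * t) t := by
      simpa using hasDerivAt_pow 2 t
    exact ((h1.const_add (r ^ 2)).add h2)
  have hρ0 : ρ 0 = r ^ 2 := by simp [hρ]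
  have hρcont : ContinuousAt ρ 0 := (hρd 0).continuousAt
  have hρev : ∀ᶠ t in 𝓝 (0 : ℝ), 0 < ρ t := by
    have : 0 < ρ 0 := by rw [hρ0]; positivity
    exact hρcont.eventually (lt_mem_nhds this)
  have hτd : ∀ t, 0 < ρ t → HasDerivAt τ ((2 * β + 2 * t) / (2 * τ t)) t := by
    intro t ht
    have h1 := (hρd t).sqrt ht.ne'
    have h2 : τ = fun t => Real.sqrt (ρ t) := funext hτsqrt
    rw [h2]
    exact h1
  have hτpos : ∀ t, 0 < ρ t → 0 < τ t := by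
    intro t ht
    rw [hτsqrt]
    exact Real.sqrt_pos.mpr ht
  have hd1 : deriv (fun t : ℝ => f (τ t)) =ᶠ[𝓝 0]
      fun t => F (τ t) * ((2 * β + 2 * t) / (2 * τ t)) := by
    filter_upwards [hρev] with t ht
    exact ((hf (τ t) (hτpos t ht)).comp t (hτd t ht)).deriv
  have hgoal : (fun t : ℝ => f ‖x + t • e‖) = fun t => f (τ t) := rfl
  rw [hgoal, hd1.deriv_eq]
  have hρ0pos : 0 < ρ 0 := by rw [hρ0]; positivity
  have hτ' : HasDerivAt τ ((2 * β + 2 * 0) / (2 * r)) 0 := by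
    have := hτd 0 hρ0pos
    rwa [hτ0] at this
  have hFτ : HasDerivAt (fun t => F (τ t)) (f₂ * ((2 * β + 2 * 0) / (2 * r))) 0 := by
    have hF' : HasDerivAt F f₂ (τ 0) := by rw [hτ0]; exact hF
    exact hF'.comp (0 : ℝ) hτ'
  have hN : HasDerivAt (fun t : ℝ => 2 * β + 2 * t) 2 0 := by
    simpa using ((hasDerivAt_id (0 : ℝ)).const_mul 2).const_add (2 * β)
  have hD : HasDerivAt (fun t : ℝ => 2 * τ t) (2 * ((2 * β + 2 * 0) / (2 * r))) 0 :=
    hτ'.const_mul 2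
  have hquot : HasDerivAt (fun t : ℝ => (2 * β + 2 * t) / (2 * τ t))
      ((2 * (2 * τ 0) - (2 * β + 2 * 0) * (2 * ((2 * β + 2 * 0) / (2 * r)))) / (2 * τ 0) ^ 2) 0 :=
    hN.div hD (by rw [hτ0]; positivity)
  have hfin := (hFτ.mul hquot).deriv
  simp only [Pi.mul_def] at hfin
  rw [hfin, hτ0]
  field_simp
  ring

/-- The Laplacian of a radial function. -/
theorem radial_lap {u : E → ℝ} {f F : ℝ → ℝ} {f₂ : ℝ} {x : E} (hx : x ≠ 0)
    (hu : ContDiffAt ℝ 2 u x) (hrad : ∀ y, u y = f ‖y‖)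
    (hf : ∀ s, 0 < s → HasDerivAt f (F s) s) (hF : HasDerivAt F f₂ ‖x‖) :
    Δ u x = f₂ + ((Module.finrank ℝ E : ℝ) - 1) / ‖x‖ * F ‖x‖ := by
  set b := stdOrthonormalBasis ℝ E
  rw [lap_eq_sum b hu]
  have hrpos : 0 < ‖x‖ := norm_pos_iff.mpr hx
  have hterm : ∀ i, deriv (deriv (fun t : ℝ => u (x + t • b i))) 0 =
      f₂ * (inner ℝ x (b i)) ^ 2 / ‖x‖ ^ 2 +
        F ‖x‖ * (1 / ‖x‖ - (inner ℝ x (b i)) ^ 2 / ‖x‖ ^ 3) := by
    intro i
    have h1 : (fun t : ℝ => u (x + t • b i)) = fun t => f ‖x + t • b i‖ := by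
      funext t; exact hrad _
    rw [h1]
    exact radial_line hx (b.orthonormal.1 i) hf hF
  simp only [hterm]
  have hsq : ∑ i, (inner ℝ x (b i)) ^ 2 = ‖x‖ ^ 2 := by
    have := b.sum_sq_norm_inner_right x
    simp only [Real.norm_eq_abs, sq_abs] at this
    rw [← this]
    exact Finset.sum_congr rfl fun i _ => by rw [real_inner_comm]
  have h2 : ∀ i, f₂ * (inner ℝ x (b i)) ^ 2 / ‖x‖ ^ 2 +
        F ‖x‖ * (1 / ‖x‖ - (inner ℝ x (b i)) ^ 2 / ‖x‖ ^ 3) =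
      (f₂ / ‖x‖ ^ 2 - F ‖x‖ / ‖x‖ ^ 3) * (inner ℝ x (b i)) ^ 2 + F ‖x‖ * (1 / ‖x‖) := by
    intro i; ring
  simp only [h2]
  rw [Finset.sum_add_distrib, ← Finset.mul_sum, hsq]
  simp only [Finset.sum_const, Finset.card_univ, Fintype.card_fin, nsmul_eq_mul]
  field_simp
  ring

omit [FiniteDimensional ℝ E] in
/-- The profile of a function twice differentiable away from the origin. -/
theorem profile_smooth {u : E → ℝ} (hu : ContDiffOn ℝ 2 u {0}ᶜ) {e : E} (he : ‖e‖ = 1)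
    {r : ℝ} (hr : 0 < r) :
    HasDerivAt (fun s : ℝ => u (s • e)) (deriv (fun s : ℝ => u (s • e)) r) r ∧
    HasDerivAt (deriv (fun s : ℝ => u (s • e))) (deriv (deriv (fun s : ℝ => u (s • e))) r) r := by
  have hne : r • e ≠ 0 := by
    rw [← norm_pos_iff, norm_smul, he, mul_one, Real.norm_of_nonneg hr.le]
    exact hr
  have h1 : ContDiffAt ℝ 2 u (r • e) := hu.contDiffAt (isOpen_compl_singleton.mem_nhds hne)
  have h2 : ContDiffAt ℝ 2 (fun s : ℝ => s • e) r := (contDiff_id.smul contDiff_const).contDiffAt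
  have h3 : ContDiffAt ℝ 2 (fun s : ℝ => u (s • e)) r := ContDiffAt.comp r h1 h2
  refine ⟨(h3.differentiableAt (by norm_num)).hasDerivAt, ?_⟩
  have h4 : ContDiffAt ℝ 1 (fderiv ℝ (fun s : ℝ => u (s • e))) r := h3.fderiv_right (by norm_num)
  have h5 : ContDiffAt ℝ 1 (fun s => fderiv ℝ (fun s : ℝ => u (s • e)) s 1) r :=
    h4.clm_apply contDiffAt_const
  have h6 : deriv (fun s : ℝ => u (s • e)) = fun s => fderiv ℝ (fun s : ℝ => u (s • e)) s 1 := by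
    funext s
    exact (fderiv_apply_one_eq_deriv).symm
  rw [h6]
  exact (h5.differentiableAt (by norm_num)).hasDerivAt

end Vale.Agent.P100h3
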